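import Mathlib
import Crest.Prelude.Def_TreeProducts

/-!
# Path products of independent multipliers: measure-theoretic core for S0169
-/

set_option autoImplicit false
open MeasureTheory ProbabilityTheory
open Crest.AnalysisR Crest.AnalysisR.TreeProduct

namespace Crest.Agent.Helper2.TP

set_option linter.unusedSectionVars false

variable {Ω : Type} [MeasurableSpace Ω] {μ : Measure Ω} {ν : Measure ℝ} {W : List ℕ → Ω → ℝ}

/-- The nonempty suffixes of a vertex (the non-root vertices on its root path). -/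
def tails : List ℕ → Finset (List ℕ)
  | [] => ∅
  | a :: v => insert (a :: v) (tails v)

lemma length_le_of_mem_tails {u v : List ℕ} (h : u ∈ tails v) : u.length ≤ v.length := by
  induction v with
  | nil => simp [tails] at h
  | cons a v ih =>
    simp only [tails, Finset.mem_insert] at h
    rcases h with rfl | h
    · exact le_rfl
    · exact (ih h).trans (by simp)

lemma ne_nil_of_mem_tails {u v : List ℕ} (h : u ∈ tails v) : u ≠ [] := by
  induction v with
  | nil => simp [tails] at h
  | cons a v ih =>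
    simp only [tails, Finset.mem_insert] at h
    rcases h with rfl | h
    · simp
    · exact ih h

lemma cons_notMem_tails (a : ℕ) (v : List ℕ) : a :: v ∉ tails v := fun h => by
  have := length_le_of_mem_tails h
  simp at this

lemma pathProduct_eq_prod (W : List ℕ → Ω → ℝ) (v : List ℕ) :
    pathProduct W v = ∏ u ∈ tails v, W u := by
  induction v with
  | nil => ext z; simp [pathProduct, tails]
  | cons a v ih =>
    ext z
    rw [tails, Finset.prod_insert (cons_notMem_tails a v)]
    simp [pathProduct, ih, mul_comm]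

lemma pathProduct_cons (W : List ℕ → Ω → ℝ) (a : ℕ) (v : List ℕ) :
    pathProduct W (a :: v) = pathProduct W v * W (a :: v) := rfl

lemma measurable_pathProduct (hWm : ∀ v, Measurable (W v)) (v : List ℕ) :
    Measurable (pathProduct W v) := by
  induction v with
  | nil => exact measurable_const
  | cons a v ih => exact ih.mul (hWm _)

/-! ### Facts about the law `ν` -/

section law

variable [IsProbabilityMeasure ν]

lemma integrable_id_of_sq (hm2 : Integrable (fun x : ℝ => x ^ 2) ν) :
    Integrable (fun x : ℝ => x) ν := by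
  refine Integrable.mono' (hm2.add (integrable_const (1 : ℝ))) measurable_id.aestronglyMeasurable
    (Filter.Eventually.of_forall fun x => ?_)
  simp only [Real.norm_eq_abs, Pi.add_apply]
  nlinarith [sq_nonneg (|x| - 1), sq_abs x, abs_nonneg x]

/-- `ρ = ∫ |x - 1| dν`. -/
noncomputable def rho (ν : Measure ℝ) : ℝ := ∫ x, |x - 1| ∂ν

lemma integrable_abs_sub_one (hm2 : Integrable (fun x : ℝ => x ^ 2) ν) :
    Integrable (fun x : ℝ => |x - 1|) ν :=
  ((integrable_id_of_sq hm2).sub (integrable_const (1 : ℝ))).abs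

lemma rho_pos (hnc : ∀ c : ℝ, ν ≠ Measure.dirac c) (hm2 : Integrable (fun x : ℝ => x ^ 2) ν) :
    0 < rho ν := by
  have h0 : 0 ≤ rho ν := integral_nonneg fun x => abs_nonneg _
  rcases h0.lt_or_eq with h | h
  · exact h
  · exfalso
    have h1 : (fun x : ℝ => |x - 1|) =ᵐ[ν] 0 :=
      (integral_eq_zero_iff_of_nonneg (fun x => abs_nonneg _) (integrable_abs_sub_one hm2)).1 h.symm
    have h2 : (id : ℝ → ℝ) =ᵐ[ν] fun _ => (1 : ℝ) := by
      filter_upwards [h1] with x hx
      have : |x - 1| = 0 := hx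
      simpa [sub_eq_zero] using this
    have h3 : HasLaw (id : ℝ → ℝ) (Measure.dirac (1 : ℝ)) ν := hasLaw_dirac_of_ae_eq h2
    have h4 := h3.map_eq
    rw [Measure.map_id] at h4
    exact hnc 1 h4

end law

/-! ### Facts about a realization -/

section realization

variable [IsProbabilityMeasure μ] [IsProbabilityMeasure ν]

lemma integral_comp_W (hW : IsRealization ν μ W) {v : List ℕ} (hv : v ≠ []) {g : ℝ → ℝ}
    (hg : Measurable g) : ∫ ω, g (W v ω) ∂μ = ∫ x, g x ∂ν := by
  rw [← hW.2.2 v hv, integral_map (hW.1 v).aemeasurable hg.aestronglyMeasurable]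

lemma integrable_comp_W (hW : IsRealization ν μ W) {v : List ℕ} (hv : v ≠ []) {g : ℝ → ℝ}
    (hg : Measurable g) (hi : Integrable g ν) : Integrable (fun ω => g (W v ω)) μ := by
  rw [← hW.2.2 v hv] at hi
  exact (integrable_map_measure hg.aestronglyMeasurable (hW.1 v).aemeasurable).1 hi

lemma W_pos_ae (hW : IsRealization ν μ W) (hpos : ν (Set.Ioi 0) = 1) {v : List ℕ}
    (hv : v ≠ []) : ∀ᵐ ω ∂μ, 0 < W v ω := by
  have h1 : μ (W v ⁻¹' Set.Ioi 0) = 1 := by
    rw [← Measure.map_apply (hW.1 v) measurableSet_Ioi, hW.2.2 v hv, hpos]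
  rw [ae_iff]
  have h2 : {ω | ¬ 0 < W v ω} = (W v ⁻¹' Set.Ioi 0)ᶜ := by ext; simp
  rw [h2, prob_compl_eq_zero_iff ((hW.1 v) measurableSet_Ioi)]
  exact h1

lemma indep_pathProduct_W (hW : IsRealization ν μ W) (a : ℕ) (v : List ℕ) :
    IndepFun (pathProduct W v) (W (a :: v)) μ := by
  rw [pathProduct_eq_prod]
  exact hW.2.1.indepFun_finsetProd_of_notMem hW.1 (cons_notMem_tails a v)

lemma pathProduct_facts (hW : IsRealization ν μ W) (hpos : ν (Set.Ioi 0) = 1)
    (hmean : ∫ x, x ∂ν = 1) (hm2 : Integrable (fun x : ℝ => x ^ 2) ν) (v : List ℕ) :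
    Integrable (pathProduct W v) μ ∧ ∫ ω, pathProduct W v ω ∂μ = 1 ∧
      (∀ᵐ ω ∂μ, 0 ≤ pathProduct W v ω) := by
  induction v with
  | nil =>
    refine ⟨integrable_const (1 : ℝ), ?_, Filter.Eventually.of_forall fun ω => zero_le_one⟩
    simp [pathProduct]
  | cons a v ih =>
    obtain ⟨hi, h1, hn⟩ := ih
    have hind := indep_pathProduct_W hW a v
    have hWi : Integrable (W (a :: v)) μ :=
      integrable_comp_W hW (by simp) measurable_id (integrable_id_of_sq hm2)
    refine ⟨hind.integrable_mul hi hWi, ?_, ?_⟩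
    · have h2 := hind.integral_fun_mul_eq_mul_integral hi.aestronglyMeasurable
        hWi.aestronglyMeasurable
      have h3 : ∫ ω, W (a :: v) ω ∂μ = 1 := by
        have := integral_comp_W hW (v := a :: v) (by simp) (g := fun x => x) measurable_id
        rw [this, hmean]
      simp only [pathProduct_cons, Pi.mul_apply]
      rw [h2, h1, h3, mul_one]
    · filter_upwards [hn, W_pos_ae hW hpos (v := a :: v) (by simp)] with ω h1 h2
      exact mul_nonneg h1 h2.le

lemma integral_abs_pathProduct (hW : IsRealization ν μ W) (hpos : ν (Set.Ioi 0) = 1)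
    (hmean : ∫ x, x ∂ν = 1) (hm2 : Integrable (fun x : ℝ => x ^ 2) ν) (v : List ℕ) :
    ∫ ω, |pathProduct W v ω| ∂μ = 1 := by
  obtain ⟨-, h1, hn⟩ := pathProduct_facts hW hpos hmean hm2 v
  rw [← h1]
  exact integral_congr_ae (by filter_upwards [hn] with ω h using abs_of_nonneg h)

end realization

/-! ### Sums of increments along the children of a vertex -/

section increments

variable [IsProbabilityMeasure μ] [IsProbabilityMeasure ν]

/-- `Z = ∑_{n ∈ A} a n (W (n :: v) - 1)`. -/
def incSum (W : List ℕ → Ω → ℝ) (v : List ℕ) (A : Finset ℕ) (a : ℕ → ℝ) (ω : Ω) : ℝ :=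
  ∑ n ∈ A, a n * (W (n :: v) ω - 1)

lemma measurable_incSum (hWm : ∀ v, Measurable (W v)) (v : List ℕ) (A : Finset ℕ) (a : ℕ → ℝ) :
    Measurable (incSum W v A a) :=
  Finset.measurable_sum _ fun _ _ => measurable_const.mul ((hWm _).sub measurable_const)

lemma indep_pathProduct_incSum (hW : IsRealization ν μ W) (v : List ℕ) (A : Finset ℕ)
    (a : ℕ → ℝ) : IndepFun (pathProduct W v) (incSum W v A a) μ := by
  classical
  set T : Finset (List ℕ) := A.image (fun n => n :: v) with hT
  have hdisj : Disjoint (tails v) T := by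
    rw [Finset.disjoint_left]
    intro u hu huT
    rw [hT, Finset.mem_image] at huT
    obtain ⟨n, -, rfl⟩ := huT
    exact cons_notMem_tails _ v hu
  have h := hW.2.1.indepFun_finset (tails v) T hdisj hW.1
  have hφ : Measurable (fun x : (tails v) → ℝ => ∏ i, x i) :=
    Finset.measurable_prod _ fun i _ => measurable_pi_apply i
  have hψ : Measurable (fun y : T → ℝ => ∑ i, a (i.1.headI) * (y i - 1)) :=
    Finset.measurable_sum _ fun i _ =>
      measurable_const.mul ((measurable_pi_apply i).sub measurable_const)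
  have h' := h.comp hφ hψ
  have e1 : (fun x : (tails v) → ℝ => ∏ i, x i) ∘ (fun ω (i : tails v) => W i ω)
      = pathProduct W v := by
    ext ω
    rw [pathProduct_eq_prod, Finset.prod_apply]
    exact Finset.prod_coe_sort (tails v) (fun u => W u ω)
  have e2 : (fun y : T → ℝ => ∑ i, a (i.1.headI) * (y i - 1)) ∘ (fun ω (i : T) => W i ω)
      = incSum W v A a := by
    ext ω
    simp only [Function.comp_apply, incSum]
    rw [Finset.sum_coe_sort T (fun u => a u.headI * (W u ω - 1)), hT,
      Finset.sum_image (fun n _ m _ h => by simpa using h)]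
    simp
  rwa [e1, e2] at h'

lemma integral_abs_pathProduct_mul_incSum (hW : IsRealization ν μ W)
    (hpos : ν (Set.Ioi 0) = 1) (hmean : ∫ x, x ∂ν = 1)
    (hm2 : Integrable (fun x : ℝ => x ^ 2) ν) (v : List ℕ) (A : Finset ℕ) (a : ℕ → ℝ) :
    ∫ ω, |pathProduct W v ω * incSum W v A a ω| ∂μ = ∫ ω, |incSum W v A a ω| ∂μ := by
  have h := (indep_pathProduct_incSum hW v A a).comp (φ := fun x : ℝ => |x|)
    (ψ := fun x : ℝ => |x|) continuous_abs.measurable continuous_abs.measurable
  have h2 := h.integral_fun_mul_eq_mul_integral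
    (continuous_abs.measurable.comp (measurable_pathProduct hW.1 v)).aestronglyMeasurable
    (continuous_abs.measurable.comp (measurable_incSum hW.1 v A a)).aestronglyMeasurable
  simp only [Function.comp_apply] at h2
  simp only [abs_mul]
  rw [h2]
  have h3 := integral_abs_pathProduct hW hpos hmean hm2 v
  rw [h3, one_mul]

end increments

/-! ### The `L²` bound for sums of increments -/

section l2

variable [IsProbabilityMeasure μ] [IsProbabilityMeasure ν]

/-- `s2 = ∫ (x - 1)² dν`, the variance of the law. -/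
noncomputable def s2 (ν : Measure ℝ) : ℝ := ∫ x, (x - 1) ^ 2 ∂ν

lemma s2_nonneg (ν : Measure ℝ) : 0 ≤ s2 ν := integral_nonneg fun _ => sq_nonneg _

lemma memLp_W (hW : IsRealization ν μ W) (hm2 : Integrable (fun x : ℝ => x ^ 2) ν)
    {u : List ℕ} (hu : u ≠ []) : MemLp (W u) 2 μ := by
  rw [memLp_two_iff_integrable_sq (hW.1 u).aestronglyMeasurable]
  exact integrable_comp_W hW hu (g := fun x => x ^ 2) (measurable_id.pow_const 2) hm2

lemma memLp_W_sub_one (hW : IsRealization ν μ W) (hm2 : Integrable (fun x : ℝ => x ^ 2) ν)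
    {u : List ℕ} (hu : u ≠ []) : MemLp (fun ω => W u ω - 1) 2 μ :=
  (memLp_W hW hm2 hu).sub (memLp_const 1)

lemma integral_W (hW : IsRealization ν μ W) (hmean : ∫ x, x ∂ν = 1) {u : List ℕ}
    (hu : u ≠ []) : ∫ ω, W u ω ∂μ = 1 := by
  have := integral_comp_W hW hu (g := fun x => x) measurable_id
  rw [this, hmean]

lemma variance_W (hW : IsRealization ν μ W) (hmean : ∫ x, x ∂ν = 1) {u : List ℕ}
    (hu : u ≠ []) : Var[W u; μ] = s2 ν := by
  rw [variance_eq_integral (hW.1 u).aemeasurable, integral_W hW hmean hu]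
  exact integral_comp_W hW hu (g := fun x => (x - 1) ^ 2)
    ((measurable_id.sub measurable_const).pow_const 2)

lemma incSum_eq_sum (W : List ℕ → Ω → ℝ) (v : List ℕ) (A : Finset ℕ) (a : ℕ → ℝ) :
    incSum W v A a = ∑ n ∈ A, fun ω => a n * (W (n :: v) ω - 1) := by
  ext ω
  simp [incSum, Finset.sum_apply]

lemma memLp_incSum (hW : IsRealization ν μ W) (hm2 : Integrable (fun x : ℝ => x ^ 2) ν)
    (v : List ℕ) (A : Finset ℕ) (a : ℕ → ℝ) : MemLp (incSum W v A a) 2 μ := by
  rw [incSum_eq_sum]
  exact memLp_finsetSum' _ fun n _ => (memLp_W_sub_one hW hm2 (by simp)).const_mul (a n)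

lemma variance_incSum (hW : IsRealization ν μ W) (hmean : ∫ x, x ∂ν = 1)
    (hm2 : Integrable (fun x : ℝ => x ^ 2) ν) (v : List ℕ) (A : Finset ℕ) (a : ℕ → ℝ) :
    Var[incSum W v A a; μ] = (∑ n ∈ A, a n ^ 2) * s2 ν := by
  rw [incSum_eq_sum, IndepFun.variance_sum
    (fun n _ => (memLp_W_sub_one hW hm2 (by simp)).const_mul (a n))]
  · rw [Finset.sum_mul]
    refine Finset.sum_congr rfl fun n _ => ?_
    rw [variance_const_mul, variance_sub_const (hW.1 _).aestronglyMeasurable,
      variance_W hW hmean (by simp)]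
  · intro n _ m _ hnm
    have h : IndepFun (W (n :: v)) (W (m :: v)) μ :=
      hW.2.1.indepFun (by simpa using hnm)
    exact h.comp (φ := fun x => a n * (x - 1)) (ψ := fun x => a m * (x - 1))
      (measurable_const.mul (measurable_id.sub measurable_const))
      (measurable_const.mul (measurable_id.sub measurable_const))

lemma integral_incSum (hW : IsRealization ν μ W) (hmean : ∫ x, x ∂ν = 1)
    (hm2 : Integrable (fun x : ℝ => x ^ 2) ν) (v : List ℕ) (A : Finset ℕ) (a : ℕ → ℝ) :
    ∫ ω, incSum W v A a ω ∂μ = 0 := by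
  unfold incSum
  rw [integral_finsetSum _ fun n _ =>
    (((memLp_W_sub_one hW hm2 (u := n :: v) (by simp)).integrable one_le_two).const_mul (a n))]
  refine Finset.sum_eq_zero fun n _ => ?_
  rw [integral_const_mul, integral_sub ((memLp_W hW hm2 (by simp)).integrable one_le_two)
    (integrable_const _), integral_W hW hmean (by simp)]
  simp

lemma integral_abs_incSum_le (hW : IsRealization ν μ W) (hmean : ∫ x, x ∂ν = 1)
    (hm2 : Integrable (fun x : ℝ => x ^ 2) ν) (v : List ℕ) (A : Finset ℕ) (a : ℕ → ℝ) :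
    ∫ ω, |incSum W v A a ω| ∂μ ≤ Real.sqrt (s2 ν) * Real.sqrt (∑ n ∈ A, a n ^ 2) := by
  have hZ := memLp_incSum hW hm2 v A a
  have hZabs : MemLp (fun ω => |incSum W v A a ω|) 2 μ := hZ.abs
  have h1 := variance_eq_sub hZ
  have h2 := variance_eq_sub hZabs
  have h3 := variance_nonneg (fun ω => |incSum W v A a ω|) μ
  have e : μ[(fun ω => |incSum W v A a ω|) ^ 2] = μ[(incSum W v A a) ^ 2] :=
    integral_congr_ae (Filter.Eventually.of_forall fun ω => by simp)
  rw [integral_incSum hW hmean hm2, variance_incSum hW hmean hm2] at h1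
  rw [e] at h2
  have h4 : (∫ ω, |incSum W v A a ω| ∂μ) ^ 2 ≤ s2 ν * ∑ n ∈ A, a n ^ 2 := by
    have : μ[(incSum W v A a) ^ 2] = (∑ n ∈ A, a n ^ 2) * s2 ν := by linarith
    nlinarith
  have h5 := Real.abs_le_sqrt h4
  rw [Real.sqrt_mul (s2_nonneg ν)] at h5
  exact (le_abs_self _).trans h5

end l2

end Crest.Agent.Helper2.TP
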