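import Mathlib
import Crest.Agent.Helper7.AUCGame
import Crest.Agent.Helper7.AUCWeakNull

/-!
# The abstract tree lemma (row 125)

A family `p : List ℕ → V` indexed by the countably branching tree (a list is a vertex, `a :: v` is a
child of `v`), bounded, whose sibling increments `p (a :: v) - p v` have norm at least `κ > 0` and
satisfy an upper `ℓ²` estimate, lets the vector player of the game of `Helper7.AUC` play any number
of rounds.  Hence the space has no equivalent asymptotically uniformly convex norm, and it is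
infinite-dimensional.
-/

set_option autoImplicit false

namespace Crest.Agent.Helper2.Tree

open Crest.Agent.Helper7.AUC

variable {V : Type*} [NormedAddCommGroup V] [NormedSpace ℝ V]

/-- **Tree strategy, height-bounded form.** If the hypotheses hold for the vertices of height
below `n`, then from any `S` within `κ/4` of some `p v` the vector player can play `j` rounds,
provided `v.length + j ≤ n`. -/
theorem tree_good {p : List ℕ → V} {C κ : ℝ} (hκ : 0 < κ) (n : ℕ)
    (hC : ∀ v : List ℕ, v.length ≤ n → ‖p v‖ ≤ C)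
    (hinc : ∀ (v : List ℕ) (a : ℕ), v.length < n → κ ≤ ‖p (a :: v) - p v‖)
    (hW : ∀ v : List ℕ, v.length < n → ∃ K : ℝ, ∀ (A : Finset ℕ) (c : ℕ → ℝ),
      ‖∑ a ∈ A, c a • (p (a :: v) - p v)‖ ≤ K * Real.sqrt (∑ a ∈ A, c a ^ 2))
    (j : ℕ) (v : List ℕ) (S : V) (hv : v.length + j ≤ n) (hS : ‖S - p v‖ < κ / 4) :
    Good (C + κ) (κ / 2) j S := by
  refine good_of_invariant (fun j S => ∃ v : List ℕ, v.length + j ≤ n ∧ ‖S - p v‖ < κ / 4)
    ?_ j S ⟨v, hv, hS⟩
  rintro j S ⟨v, hv, hS⟩ F hF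
  have hvn : v.length < n := by omega
  obtain ⟨K, hK⟩ := hW v hvn
  set η : ℝ := min (κ / 2) ((κ / 4 - ‖S - p v‖) / 2) with hη
  have hηpos : 0 < η := lt_min (by linarith) (by linarith)
  have hη1 : η ≤ κ / 2 := min_le_left _ _
  have hη2 : η ≤ (κ / 4 - ‖S - p v‖) / 2 := min_le_right _ _
  obtain ⟨a, -, y, hyF, hy⟩ := exists_near_cof (d := fun a => p (a :: v) - p v) hK hF hηpos 0
  have hd := hinc v a hvn
  refine ⟨y, hyF, ?_, ?_, a :: v, ?_, ?_⟩
  · -- `κ / 2 ≤ ‖y‖`
    have h1 : ‖p (a :: v) - p v‖ ≤ ‖p (a :: v) - p v - y‖ + ‖y‖ := by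
      have := norm_add_le (p (a :: v) - p v - y) y
      simpa using this
    linarith
  · -- `‖S + y‖ ≤ C + κ`
    have e : S + y = p (a :: v) + ((S - p v) - (p (a :: v) - p v - y)) := by abel
    have h1 : ‖S + y‖ ≤ ‖p (a :: v)‖ + (‖S - p v‖ + ‖p (a :: v) - p v - y‖) := by
      rw [e]
      have h3 := norm_add_le (p (a :: v)) ((S - p v) - (p (a :: v) - p v - y))
      have h4 := norm_sub_le (S - p v) (p (a :: v) - p v - y)
      linarith
    have h2 := hC (a :: v) (by simp only [List.length_cons]; omega)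
    linarith
  · simp only [List.length_cons]; omega
  · -- the new error
    have e : S + y - p (a :: v) = (S - p v) - (p (a :: v) - p v - y) := by abel
    rw [e]
    have h1 := norm_sub_le (S - p v) (p (a :: v) - p v - y)
    linarith

/-- **Abstract tree lemma.** -/
theorem tree_not_isAUC (p : List ℕ → V) (C κ : ℝ) (hκ : 0 < κ)
    (hC : ∀ v : List ℕ, ‖p v‖ ≤ C)
    (hinc : ∀ (v : List ℕ) (a : ℕ), κ ≤ ‖p (a :: v) - p v‖)
    (hW : ∀ v : List ℕ, ∃ K : ℝ, ∀ (A : Finset ℕ) (c : ℕ → ℝ),
      ‖∑ a ∈ A, c a • (p (a :: v) - p v)‖ ≤ K * Real.sqrt (∑ a ∈ A, c a ^ 2)) :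
    (¬ FiniteDimensional ℝ V) ∧ ∀ N : V → ℝ, IsEquivNorm N → ¬ IsAUC N := by
  constructor
  · intro hfd
    have hcof : IsCof ({0} : Set V) := by
      refine ⟨⊥, by simp, isClosed_singleton, ?_⟩
      infer_instance
    obtain ⟨K, hK⟩ := hW []
    obtain ⟨a, -, y, hy0, hy⟩ := exists_near_cof (d := fun a => p (a :: []) - p []) hK hcof hκ 0
    rw [Set.mem_singleton_iff] at hy0
    rw [hy0, sub_zero] at hy
    exact absurd (hinc [] a) (not_le.mpr hy)
  · -- play the game with `q v = p v - p []`, starting from `q [0]`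
    set q : List ℕ → V := fun v => p v - p [] with hq
    have hC0 : 0 ≤ C := (norm_nonneg _).trans (hC [])
    have hqC : ∀ v : List ℕ, ‖q v‖ ≤ 2 * C := fun v => by
      have := norm_sub_le (p v) (p [])
      have h1 := hC v
      have h2 := hC []
      simp only [hq]
      linarith
    have hqinc : ∀ (v : List ℕ) (a : ℕ), κ ≤ ‖q (a :: v) - q v‖ := fun v a => by
      have e : q (a :: v) - q v = p (a :: v) - p v := by simp only [hq]; abel
      rw [e]; exact hinc v a
    have hqW : ∀ v : List ℕ, ∃ K : ℝ, ∀ (A : Finset ℕ) (c : ℕ → ℝ),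
        ‖∑ a ∈ A, c a • (q (a :: v) - q v)‖ ≤ K * Real.sqrt (∑ a ∈ A, c a ^ 2) := fun v => by
      obtain ⟨K, hK⟩ := hW v
      refine ⟨K, fun A c => ?_⟩
      have e : ∀ a, q (a :: v) - q v = p (a :: v) - p v := fun a => by simp only [hq]; abel
      simp only [e]
      exact hK A c
    refine not_isAUC_of_good (C := 2 * C + κ) (ρ := κ / 2) (by linarith) fun n => ?_
    refine ⟨q [0], ?_, ?_, ?_⟩
    · have h := hqinc [] 0
      have e : q [0] - q [] = q [0] := by simp [hq]
      rw [e] at h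
      linarith
    · have := hqC [0]; linarith
    · exact tree_good hκ (n + 1) (fun v _ => hqC v) (fun v a _ => hqinc v a) (fun v _ => hqW v)
        n [0] (q [0]) (by simp only [List.length_cons, List.length_nil]; omega)
        (by simpa using by linarith)

/-- Record form of the abstract tree lemma, for `E : RealBanach` of `Def_AsymptoticConvexity`. -/
theorem tree_not_auc (E : Crest.AnalysisR.RealBanach) (p : List ℕ → E.X) (C κ : ℝ) (hκ : 0 < κ)
    (hC : ∀ v : List ℕ, E.norm (p v) ≤ C)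
    (hinc : letI := E.normed; ∀ (v : List ℕ) (a : ℕ), κ ≤ E.norm (p (a :: v) - p v))
    (hW : letI := E.normed; letI := E.space; ∀ v : List ℕ, ∃ K : ℝ,
      ∀ (A : Finset ℕ) (c : ℕ → ℝ),
        E.norm (∑ a ∈ A, c a • (p (a :: v) - p v)) ≤ K * Real.sqrt (∑ a ∈ A, c a ^ 2)) :
    (letI := E.normed; letI := E.space; ¬ FiniteDimensional ℝ E.X) ∧
      ∀ N : E.X → ℝ, E.IsEquivNorm N → ¬ E.IsAUC N :=
  @tree_not_isAUC E.X E.normed E.space p C κ hκ hC hinc hW

end Crest.Agent.Helper2.Tree
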