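import Mathlib
import Crest.Agent.Helper7.TreeDefs
import Crest.Agent.Helper7.AUCGame
import Crest.Agent.Helper8.TreeBasic
import Crest.Agent.Helper2.TreeLemma

/-!
# The tree game in the tree-potential spaces (row 125, module TREE-GAME)

Generic over the extra condition `Extra` with `PotClass Extra` (helper7's `TreeDefs`):

* `norm_le_of_evalT`: the norm of `space Extra` is the supremum over the tests.
* `norm_sibling_le`: sibling coordinate vectors satisfy an upper `ℓ²` estimate with constant `1`.
* `pathSum Extra v`: the sum of the coordinate vectors along the root path of `v` (root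
  excluded); `‖pathSum Extra v‖ ≤ 2`.
* `tree_not_auc`: if all non-root vertices are live, the space is infinite-dimensional and has no
  equivalent asymptotically uniformly convex norm.
* `block_good`: in the block `Block (n + 1)` the vector player can play `n` rounds from
  `e [0]`, with constants `C = 3`, `ρ = 1 / 2` independent of `n`.
-/

set_option autoImplicit false

namespace Crest.Agent.Helper2.TreeGame

open Crest.AnalysisR Crest.AnalysisR.TreePotential
open Crest.Agent.Helper7 Crest.Agent.Helper7.Tree

variable {Extra : (List ℕ → ℝ) → Prop}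

/-- The norm of the generated space is the supremum over the tests. -/
theorem norm_le_of_evalT (y : space Extra) {M : ℝ} (hM : 0 ≤ M)
    (h : ∀ f : Test Extra, |evalT Extra f y| ≤ M) : ‖y‖ ≤ M := by
  have h1 : ‖(y : lp (fun _ : Test Extra => ℝ) ⊤)‖ ≤ M :=
    lp.norm_le_of_forall_le hM (fun f => by
      have := h f
      rwa [evalT_apply] at this)
  exact h1

/-- Sibling coordinate vectors satisfy an upper `ℓ²` estimate with constant `1`. -/
theorem norm_sibling_le (hE : PotClass Extra) (r : List ℕ) (A : Finset ℕ) (a : ℕ → ℝ) :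
    ‖∑ n ∈ A, a n • e Extra (n :: r)‖ ≤ Real.sqrt (∑ n ∈ A, a n ^ 2) := by
  refine norm_le_of_evalT _ (Real.sqrt_nonneg _) fun f => ?_
  have h1 : evalT Extra f (∑ n ∈ A, a n • e Extra (n :: r)) = ∑ n ∈ A, a n * f.1 (n :: r) := by
    rw [map_sum]
    refine Finset.sum_congr rfl fun n _ => ?_
    rw [map_smul, evalT_e, smul_eq_mul]
  rw [h1]
  refine Real.abs_le_sqrt ?_
  have h2 := Finset.sum_mul_sq_le_sq_mul_sq A a (fun n => f.1 (n :: r))
  have h3 : ∑ n ∈ A, f.1 (n :: r) ^ 2 ≤ 1 := hE.sib f.1 f.2.2 r A
  have h4 : 0 ≤ ∑ n ∈ A, a n ^ 2 := Finset.sum_nonneg fun n _ => sq_nonneg _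
  calc (∑ n ∈ A, a n * f.1 (n :: r)) ^ 2
      ≤ (∑ n ∈ A, a n ^ 2) * ∑ n ∈ A, f.1 (n :: r) ^ 2 := h2
    _ ≤ (∑ n ∈ A, a n ^ 2) * 1 := mul_le_mul_of_nonneg_left h3 h4
    _ = ∑ n ∈ A, a n ^ 2 := mul_one _

/-- The sum of the coordinate vectors along the root path of `v`, the root excluded. -/
noncomputable def pathSum (Extra : (List ℕ → ℝ) → Prop) : List ℕ → space Extra
  | [] => 0
  | a :: v => pathSum Extra v + e Extra (a :: v)

@[simp] theorem pathSum_nil : pathSum Extra [] = 0 := rfl

@[simp] theorem pathSum_cons (a : ℕ) (v : List ℕ) :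
    pathSum Extra (a :: v) = pathSum Extra v + e Extra (a :: v) := rfl

theorem pathSum_cons_sub (a : ℕ) (v : List ℕ) :
    pathSum Extra (a :: v) - pathSum Extra v = e Extra (a :: v) := by
  rw [pathSum_cons, add_sub_cancel_left]

theorem evalT_pathSum (f : Test Extra) (v : List ℕ) :
    evalT Extra f (pathSum Extra v) = pathPotential f.1 v - f.1 [] := by
  induction v with
  | nil => simp [pathPotential]
  | cons a v ih =>
    rw [pathSum_cons, map_add, ih, evalT_e]
    simp only [pathPotential]
    ring

/-- The path sums are bounded by `2`. -/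
theorem norm_pathSum_le (v : List ℕ) : ‖pathSum Extra v‖ ≤ 2 := by
  refine norm_le_of_evalT _ (by norm_num) fun f => ?_
  rw [evalT_pathSum]
  have h1 := f.2.1 v
  have h2 := f.2.1 []
  simp only [pathPotential] at h2
  rw [abs_le] at h1 h2 ⊢
  constructor <;> linarith [h1.1, h1.2, h2.1, h2.2]

/-- **Tree-potential spaces are not AUC-renormable** (and infinite-dimensional), as soon as all
non-root vertices are live. -/
theorem tree_not_auc (hE : PotClass Extra)
    (hlive : ∀ s : List ℕ, s ≠ [] → Extra (Pi.single s 1)) :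
    (¬ FiniteDimensional ℝ (space Extra)) ∧
      ∀ N : space Extra → ℝ, AUC.IsEquivNorm N → ¬ AUC.IsAUC N := by
  refine Crest.Agent.Helper2.Tree.tree_not_isAUC (pathSum Extra) 2 1 one_pos
    (fun v => norm_pathSum_le v) (fun v a => ?_) (fun v => ⟨1, fun A c => ?_⟩)
  · rw [pathSum_cons_sub]
    exact Crest.Agent.Helper8.one_le_norm_e (hlive (a :: v) (List.cons_ne_nil a v))
  · simp only [pathSum_cons_sub, one_mul]
    exact norm_sibling_le hE v A c

/-- Height-bounded form: if all non-root vertices of length at most `n` are live, then from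
`e [0]` the vector player can play `n - 1` rounds, with constants `3` and `1 / 2`. -/
theorem pot_good (hE : PotClass Extra) (n : ℕ)
    (hlive : ∀ s : List ℕ, s ≠ [] → s.length ≤ n + 1 → Extra (Pi.single s 1)) :
    (1 / 2 : ℝ) ≤ ‖e Extra [0]‖ ∧ ‖e Extra [0]‖ ≤ 3 ∧ AUC.Good (3 : ℝ) (1 / 2) n (e Extra [0]) := by
  have he : pathSum Extra [0] = e Extra [0] := by simp
  have h1 : 1 ≤ ‖e Extra [0]‖ :=
    Crest.Agent.Helper8.one_le_norm_e (hlive [0] (List.cons_ne_nil 0 []) (by simp))
  have h2 : ‖e Extra [0]‖ ≤ 2 := by rw [← he]; exact norm_pathSum_le _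
  refine ⟨by linarith, by linarith, ?_⟩
  have hgood := Crest.Agent.Helper2.Tree.tree_good (p := pathSum Extra) (C := 2) (κ := 1) one_pos
    (n + 1) (fun v _ => norm_pathSum_le v)
    (fun v a hv => by
      rw [pathSum_cons_sub]
      exact Crest.Agent.Helper8.one_le_norm_e
        (hlive (a :: v) (List.cons_ne_nil a v) (by simp only [List.length_cons]; omega)))
    (fun v _ => ⟨1, fun A c => by
      simp only [pathSum_cons_sub, one_mul]
      exact norm_sibling_le hE v A c⟩)
    n [0] (e Extra [0]) (by simp only [List.length_cons, List.length_nil]; omega)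
    (by rw [he, sub_self, norm_zero]; norm_num)
  have e1 : (2 : ℝ) + 1 = 3 := by norm_num
  rw [e1] at hgood
  exact hgood

/-- **Block game.** In `Block (n + 1)` the vector player can play `n` rounds from `e [0]`, with
constants `C = 3`, `ρ = 1 / 2` independent of `n`. -/
theorem block_good (n : ℕ) :
    ∃ S : Block (n + 1), (1 / 2 : ℝ) ≤ ‖S‖ ∧ ‖S‖ ≤ 3 ∧ AUC.Good (3 : ℝ) (1 / 2) n S :=
  ⟨e (ExtraH (n + 1)) [0],
    pot_good (Crest.Agent.Helper8.potClass_extraH (n + 1)) n
      (fun s _ hs => Crest.Agent.Helper8.extraH_single (n + 1) s hs)⟩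

/-- **Third conjunct of S0168, verbatim**: no equivalent norm on the space of any of the four
tree-potential models is asymptotically uniformly convex. -/
theorem modelBanach_not_auc (m : PotentialModel) :
    ∀ N : (modelBanach m).X → ℝ, (modelBanach m).IsEquivNorm N → ¬ (modelBanach m).IsAUC N :=
  (tree_not_auc (Crest.Agent.Helper8.potClass_extraCondition m)
    (fun s hs => Crest.Agent.Helper8.extraCondition_single m s hs)).2

end Crest.Agent.Helper2.TreeGame
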